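import Vale.Agent.P246.R2.H429.Defs4

/-! # P246: ROW TW2, the covering of the wedge with two-spheres -/

namespace Vale.Agent.P246.R2.H946

open Vale.Agent.P246 Vale.Agent.P246.T Vale.Agent.P246.H429 Topology Set

/-- The wedge as a set. -/
def WS (X : Type) (x : X) (s : S2) (t : ℕ) : Set (X × (Fin t → S2)) :=
  {q | (∀ i, q.2 i = s) ∨ (q.1 = x ∧ ∃ i, ∀ j, j ≠ i → q.2 j = s)}

theorem specCovW : SpecCovW := by
  intro G X E _ _ _ _ _ p hp x s t
  let f : E × (Fin t → S2) → X × (Fin t → S2) := Prod.map p id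
  have hf : IsOpenQuotientMap f := hp.isOpenQuotientMap.prodMap IsOpenQuotientMap.id
  let F : Type := {z : E × (Fin t → S2) // f z ∈ WS X x s t}
  let act : MulAction G F :=
    { smul := fun g z => ⟨(g • z.1.1, z.1.2), by
        have h : f (g • z.1.1, z.1.2) = f z.1 := Prod.ext (hp.map_smul g) rfl
        rw [h]; exact z.2⟩
      one_smul := fun z => Subtype.ext (Prod.ext (one_smul G z.1.1) rfl)
      mul_smul := fun g h z => Subtype.ext (Prod.ext (mul_smul g h z.1.1) rfl) }
  have hsm : ∀ (g : G) (z : F), (g • z).1 = (g • z.1.1, z.1.2) := fun g z => rfl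
  have cont : ContinuousConstSMul G F := by
    refine ⟨fun g => ?_⟩
    refine Continuous.subtype_mk (f := fun z : F => ((g • z.1.1, z.1.2) : E × (Fin t → S2))) ?_ _
    exact ((continuous_const_smul g).comp (continuous_fst.comp continuous_subtype_val)).prodMk
      (continuous_snd.comp continuous_subtype_val)
  let q : C(F, WedgeS2 X x s t) := ⟨fun z => ⟨f z.1, z.2⟩,
    Continuous.subtype_mk (hf.continuous.comp continuous_subtype_val) _⟩
  let ι : C(E, F) := ⟨fun e => ⟨(e, fun _ => s), Or.inl fun _ => rfl⟩,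
    Continuous.subtype_mk (continuous_id.prodMk continuous_const) _⟩
  have hq1 : IsOpenQuotientMap q := by
    refine ⟨?_, q.continuous, ?_⟩
    · rintro ⟨w, hw⟩
      obtain ⟨z, rfl⟩ := hf.surjective w
      exact ⟨⟨z, hw⟩, rfl⟩
    · exact hf.isOpenMap.restrictPreimage (WS X x s t)
  refine ⟨F, inferInstance, act, cont, q, ι, ?_, ?_, ?_, ?_, ?_⟩
  · refine { hq1.isQuotientMap with
      continuous_const_smul := cont.continuous_const_smul
      apply_eq_iff_mem_orbit := ?_
      disjoint := ?_ }
    · intro a b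
      constructor
      · intro h
        have h0 : f a.1 = f b.1 := congrArg Subtype.val h
        have h3 : p a.1.1 = p b.1.1 := congrArg Prod.fst h0
        have h4 : a.1.2 = b.1.2 := congrArg (fun z : X × (Fin t → S2) => z.2) h0
        obtain ⟨g, hg⟩ := hp.apply_eq_iff_mem_orbit.1 h3
        exact ⟨g, Subtype.ext (Prod.ext hg h4.symm)⟩
      · rintro ⟨g, rfl⟩
        exact Subtype.ext (Prod.ext (hp.map_smul g) rfl)
    · intro a
      obtain ⟨U, hU, hd⟩ := hp.disjoint a.1.1
      refine ⟨(fun z : F => z.1.1) ⁻¹' U, ?_, ?_⟩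
      · exact (continuous_fst.comp continuous_subtype_val).continuousAt.preimage_mem_nhds hU
      · rintro g ⟨_, ⟨b, hb, rfl⟩, hb'⟩
        exact hd g ⟨g • b.1.1, ⟨b.1.1, hb, rfl⟩, hb'⟩
  · have hl : Function.LeftInverse (fun z : F => z.1.1) ι := fun e => rfl
    exact hl.isEmbedding (continuous_fst.comp continuous_subtype_val) ι.continuous
  · ext z
    constructor
    · rintro ⟨e, rfl⟩
      exact fun _ => rfl
    · intro h
      exact ⟨z.1.1, Subtype.ext (Prod.ext rfl (funext fun i => (h i).symm))⟩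
  · intro g e
    exact Subtype.ext rfl
  · intro e
    rfl

end Vale.Agent.P246.R2.H946
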